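import Vale.Agent.P333.Defs
import Vale.Agent.P333.Tour

namespace Vale.Agent.Results.P333.Two

open Vale.Agent.P333

/-- The shortest common superstring problem has a polynomial-time `2`-approximation. -/
theorem result : HasApprox 2 ∧ rhoStar ≤ 2 := by
  have h : HasApprox 2 := ⟨alg, alg_tm, fun S => ⟨(alg_spec S).1, by
    obtain ⟨T, h1, h2⟩ := Nat.sInf_mem (s := {n | ∃ T, IsSuper S T ∧ T.length = n})
      ⟨_, S.flatten, fun s hs => List.infix_of_mem_flatten hs, rfl⟩
    have := (alg_spec S).2 T h1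
    rw [OPT, ← h2]
    exact_mod_cast this⟩⟩
  exact ⟨h, csInf_le ⟨1, fun _ h => h.1⟩ ⟨by norm_num, h⟩⟩

end Vale.Agent.Results.P333.Two
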